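import Crest.Agent.R339.Defs

/-!
# R339/L: elementary operator algebra (rotations, commutator with `Z`)
-/

set_option autoImplicit false
open MeasureTheory ProbabilityTheory Filter Topology Complex

namespace Crest.Agent.R339.L

variable {E K : Type} [NormedAddCommGroup E] [InnerProductSpace ℂ E]
  [NormedAddCommGroup K] [InnerProductSpace ℂ K] [CompleteSpace K]

/-- `exp (-i θ A)` for an involution `A`. -/
noncomputable def rot (A : K →L[ℂ] K) (θ : ℝ) : K →L[ℂ] K :=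
  ((Real.cos θ : ℝ) : ℂ) • (1 : K →L[ℂ] K) - (I * ((Real.sin θ : ℝ) : ℂ)) • A

theorem norm_le_one_of_unitary {U : K →L[ℂ] K} (hU : U ∈ unitary (K →L[ℂ] K)) : ‖U‖ ≤ 1 := by
  have := CStarRing.norm_mem_unitary_mul (1 : K →L[ℂ] K) hU
  rw [mul_one] at this
  rw [this]; exact ContinuousLinearMap.norm_id_le

omit [CompleteSpace K] in
theorem rot_zero (A : K →L[ℂ] K) : rot A 0 = 1 := by simp [rot]

omit [CompleteSpace K] in
theorem rot_add {A : K →L[ℂ] K} (hA : A * A = 1) (a b : ℝ) :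
    rot A (a + b) = rot A a * rot A b := by
  simp only [rot, Real.cos_add, Real.sin_add, sub_mul, mul_sub, smul_mul_assoc, mul_smul_comm,
    one_mul, mul_one, hA, smul_smul, smul_sub]
  push_cast
  have hI : I * I = -1 := I_mul_I
  rw [show I * Complex.sin b * (I * Complex.sin a) = -(Complex.sin a * Complex.sin b) by
    linear_combination (Complex.sin a * Complex.sin b) * hI]
  module

theorem star_rot {A : K →L[ℂ] K} (hs : star A = A) (a : ℝ) : star (rot A a) = rot A (-a) := by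
  simp only [rot, star_sub, star_smul, star_one, hs, Real.cos_neg, Real.sin_neg]
  congr 1
  · congr 1; exact Complex.conj_ofReal _
  · congr 1
    simp [Complex.conj_ofReal, -Complex.ofReal_sin]

theorem rot_unitary {A : K →L[ℂ] K} (hs : star A = A) (hA : A * A = 1) (a : ℝ) :
    rot A a ∈ unitary (K →L[ℂ] K) := by
  rw [Unitary.mem_iff, star_rot hs, ← rot_add hA, ← rot_add hA]
  simp [rot_zero]

theorem invol_unitary {A : K →L[ℂ] K} (hs : star A = A) (hA : A * A = 1) :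
    A ∈ unitary (K →L[ℂ] K) := by
  rw [Unitary.mem_iff, hs]; exact ⟨hA, hA⟩

omit [CompleteSpace K] in
theorem continuous_rot (A : K →L[ℂ] K) : Continuous (rot A) := by
  unfold rot; fun_prop

omit [CompleteSpace K] in
theorem norm_rot_sub {A : K →L[ℂ] K} (hA : ‖A‖ ≤ 1) (a b : ℝ) :
    ‖rot A a - rot A b‖ ≤ 2 * |a - b| := by
  have h : rot A a - rot A b = ((Real.cos a - Real.cos b : ℝ) : ℂ) • (1 : K →L[ℂ] K)
      - (I * ((Real.sin a - Real.sin b : ℝ) : ℂ)) • A := by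
    simp only [rot]; push_cast; module
  rw [h]
  have h1 : ‖(1 : K →L[ℂ] K)‖ ≤ 1 := ContinuousLinearMap.norm_id_le
  refine (norm_sub_le _ _).trans ?_
  rw [norm_smul, norm_smul, norm_mul, Complex.norm_I, one_mul, Complex.norm_real,
    Complex.norm_real, Real.norm_eq_abs, Real.norm_eq_abs]
  have h2 := Real.abs_cos_sub_cos_le a b
  have h3 := Real.abs_sin_sub_sin_le a b
  have h4 := mul_le_mul h2 h1 (norm_nonneg _) (abs_nonneg _)
  have h5 := mul_le_mul h3 hA (norm_nonneg _) (abs_nonneg _)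
  linarith

theorem abs_sub_sin_le_sq (x : ℝ) : |x - Real.sin x| ≤ x ^ 2 := by
  have h1 := Real.abs_sub_sin_le x
  have h2 : |x - Real.sin x| ≤ 2 * |x| :=
    (abs_sub _ _).trans (by have := Real.abs_sin_le_abs (x := x); linarith)
  have h3 := abs_nonneg x
  rw [← sq_abs x]
  rcases le_total |x| 2 with h | h
  · nlinarith [mul_nonneg h3 h3]
  · nlinarith

omit [CompleteSpace K] in
/-- first order expansion -/
theorem norm_rot_sub_lin {A : K →L[ℂ] K} (hA : ‖A‖ ≤ 1) (a : ℝ) :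
    ‖rot A a - (1 - (I * (a : ℂ)) • A)‖ ≤ 2 * a ^ 2 := by
  have h : rot A a - (1 - (I * (a : ℂ)) • A) = ((Real.cos a - 1 : ℝ) : ℂ) • (1 : K →L[ℂ] K)
      + (I * ((a - Real.sin a : ℝ) : ℂ)) • A := by
    simp only [rot]; push_cast; module
  rw [h]
  have h1 : ‖(1 : K →L[ℂ] K)‖ ≤ 1 := ContinuousLinearMap.norm_id_le
  refine (norm_add_le _ _).trans ?_
  rw [norm_smul, norm_smul, norm_mul, Complex.norm_I, one_mul, Complex.norm_real,
    Complex.norm_real, Real.norm_eq_abs, Real.norm_eq_abs]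
  have h2 : |Real.cos a - 1| ≤ a ^ 2 := by
    have := Real.one_sub_sq_div_two_le_cos (x := a)
    have := Real.cos_le_one a
    rw [abs_le]; constructor <;> nlinarith [sq_nonneg a]
  have h3 := abs_sub_sin_le_sq a
  have h4 := mul_le_mul h2 h1 (norm_nonneg _) (sq_nonneg _)
  have h5 := mul_le_mul h3 hA (norm_nonneg _) (sq_nonneg _)
  linarith

variable (M : Model E K)

theorem RX_eq (θ : ℝ) : M.RX θ = rot M.X θ := rfl
theorem RZ_eq (θ : ℝ) : M.RZ θ = rot M.Z θ := rfl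

theorem Z_unitary : M.Z ∈ unitary (K →L[ℂ] K) := invol_unitary M.Z_star M.Z_Z
theorem X_unitary : M.X ∈ unitary (K →L[ℂ] K) := invol_unitary M.X_star M.X_X
theorem RX_unitary (θ : ℝ) : M.RX θ ∈ unitary (K →L[ℂ] K) := rot_unitary M.X_star M.X_X θ
theorem RZ_unitary (θ : ℝ) : M.RZ θ ∈ unitary (K →L[ℂ] K) := rot_unitary M.Z_star M.Z_Z θ
theorem norm_Z : ‖M.Z‖ ≤ 1 := norm_le_one_of_unitary (Z_unitary M)
theorem norm_X : ‖M.X‖ ≤ 1 := norm_le_one_of_unitary (X_unitary M)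
theorem RX_zero : M.RX 0 = 1 := rot_zero _
theorem RX_add (a b : ℝ) : M.RX (a + b) = M.RX a * M.RX b := rot_add M.X_X a b
theorem RZ_zero : M.RZ 0 = 1 := rot_zero _
theorem RZ_add (a b : ℝ) : M.RZ (a + b) = M.RZ a * M.RZ b := rot_add M.Z_Z a b
theorem norm_RX_sub (a b : ℝ) : ‖M.RX a - M.RX b‖ ≤ 2 * |a - b| := norm_rot_sub (norm_X M) a b
theorem continuous_RX : Continuous M.RX := continuous_rot M.X
theorem continuous_RZ : Continuous M.RZ := continuous_rot M.Z

theorem W_mul_neg (f : E) : M.W f * M.W (-f) = 1 := by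
  rw [M.W_mul]; simp [M.W_zero, inner_self_eq_norm_sq_to_K, ← Complex.ofReal_pow]

theorem W_unitary (f : E) : M.W f ∈ unitary (K →L[ℂ] K) := by
  rw [Unitary.mem_iff, M.W_star]
  refine ⟨?_, W_mul_neg M f⟩
  simpa using W_mul_neg M (-f)

theorem WZ_eq (f : E) :
    M.WZ f = (1 / 2 : ℂ) • (M.W f + M.W (-f)) + (1 / 2 : ℂ) • (M.Z * (M.W f - M.W (-f))) := by
  simp only [Model.WZ, Model.P, Crest.MathPhysics.SpinGlass.spinSign, smul_mul_assoc, add_mul,
    one_mul, mul_sub]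
  simp only [Bool.false_eq_true, if_false, if_true]
  push_cast
  module

theorem WZ_mul_neg (f : E) : M.WZ f * M.WZ (-f) = 1 := by
  have h1 := W_mul_neg M f
  have h2 : M.W (-f) * M.W f = 1 := by simpa using W_mul_neg M (-f)
  have c1 : M.W f * M.Z = M.Z * M.W f := (M.Z_W f).eq.symm
  have c2 : M.W (-f) * M.Z = M.Z * M.W (-f) := (M.Z_W (-f)).eq.symm
  have hZ := M.Z_Z
  have a1 : ∀ B : K →L[ℂ] K, M.W f * (M.Z * B) = M.Z * (M.W f * B) := fun B => by
    rw [← mul_assoc, c1, mul_assoc]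
  have a2 : ∀ B : K →L[ℂ] K, M.W (-f) * (M.Z * B) = M.Z * (M.W (-f) * B) := fun B => by
    rw [← mul_assoc, c2, mul_assoc]
  have a3 : ∀ B : K →L[ℂ] K, M.Z * (M.Z * B) = B := fun B => by
    rw [← mul_assoc, hZ, one_mul]
  rw [WZ_eq, WZ_eq, neg_neg]
  simp only [add_mul, mul_add, sub_mul, mul_sub, smul_mul_assoc, mul_smul_comm, mul_assoc, a1, a2,
    a3, h1, h2, mul_one, smul_add, smul_sub, hZ]
  module

theorem star_WZ (f : E) : star (M.WZ f) = M.WZ (-f) := by
  have c1 : M.W f * M.Z = M.Z * M.W f := (M.Z_W f).eq.symm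
  have c2 : M.W (-f) * M.Z = M.Z * M.W (-f) := (M.Z_W (-f)).eq.symm
  rw [WZ_eq, WZ_eq, neg_neg]
  simp only [star_add, star_smul, star_mul, star_sub, M.W_star, M.Z_star, neg_neg,
    mul_sub, c1, c2]
  simp [add_comm]

theorem WZ_unitary (f : E) : M.WZ f ∈ unitary (K →L[ℂ] K) := by
  rw [Unitary.mem_iff, star_WZ]
  refine ⟨?_, WZ_mul_neg M f⟩
  simpa using WZ_mul_neg M (-f)

/-- size of the commutator with `Z`. -/
noncomputable def cm (P : K →L[ℂ] K) : ℝ := ‖M.Z * P - P * M.Z‖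

theorem cm_nonneg (P : K →L[ℂ] K) : 0 ≤ cm M P := norm_nonneg _

theorem cm_one : cm M 1 = 0 := by simp [cm]

theorem cm_mul {P Q : K →L[ℂ] K} (hP : P ∈ unitary (K →L[ℂ] K)) (hQ : Q ∈ unitary (K →L[ℂ] K)) :
    cm M (P * Q) ≤ cm M P + cm M Q := by
  have h : M.Z * (P * Q) - P * Q * M.Z = (M.Z * P - P * M.Z) * Q + P * (M.Z * Q - Q * M.Z) := by
    noncomm_ring
  unfold cm
  rw [h]
  refine (norm_add_le _ _).trans (le_of_eq ?_)
  rw [CStarRing.norm_mul_mem_unitary _ hQ, CStarRing.norm_mem_unitary_mul _ hP]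

theorem cm_le (P Q : K →L[ℂ] K) : cm M P ≤ cm M Q + 2 * ‖P - Q‖ := by
  have h : M.Z * P - P * M.Z = (M.Z * Q - Q * M.Z) + (M.Z * (P - Q) - (P - Q) * M.Z) := by
    noncomm_ring
  unfold cm
  rw [h]
  refine (norm_add_le _ _).trans (add_le_add le_rfl ((norm_sub_le _ _).trans (le_of_eq ?_)))
  rw [CStarRing.norm_mul_mem_unitary _ (Z_unitary M), CStarRing.norm_mem_unitary_mul _ (Z_unitary M)]
  ring

theorem cm_RZ (a : ℝ) : cm M (M.RZ a) = 0 := by
  simp [cm, Model.RZ, mul_sub, sub_mul]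

theorem cm_RX (a : ℝ) : cm M (M.RX a) ≤ 2 * |Real.sin a| := by
  have h : M.Z * M.RX a - M.RX a * M.Z
      = (I * ((Real.sin a : ℝ) : ℂ)) • (M.X * M.Z - M.Z * M.X) := by
    simp only [Model.RX, mul_sub, sub_mul, smul_mul_assoc, mul_smul_comm, one_mul, mul_one]
    module
  unfold cm
  rw [h, norm_smul, norm_mul, Complex.norm_I, one_mul, Complex.norm_real, Real.norm_eq_abs, mul_comm]
  refine mul_le_mul_of_nonneg_right ((norm_sub_le _ _).trans ?_) (abs_nonneg _)
  rw [CStarRing.norm_mul_mem_unitary _ (Z_unitary M), CStarRing.norm_mem_unitary_mul _ (Z_unitary M)]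
  have := norm_X M
  linarith

theorem continuous_cm : Continuous (cm M) := by
  unfold cm; fun_prop

theorem continuous_psi : Continuous M.psi := by
  unfold Model.psi
  exact (isBoundedBilinearMap_apply (𝕜 := ℂ) (E := K) (F := K)).continuous.comp
    (continuous_star.prodMk (M.Z.continuous.comp (by fun_prop)))

theorem norm_psi {V : K →L[ℂ] K} (hV : V ∈ unitary (K →L[ℂ] K)) : ‖M.psi V‖ = 1 := by
  unfold Model.psi
  rw [ContinuousLinearMap.norm_map_of_mem_unitary (Unitary.star_mem hV),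
    ContinuousLinearMap.norm_map_of_mem_unitary (Z_unitary M),
    ContinuousLinearMap.norm_map_of_mem_unitary hV, M.norm_Ω]

theorem norm_ZΩ : ‖M.Z M.Ω‖ = 1 := by
  rw [ContinuousLinearMap.norm_map_of_mem_unitary (Z_unitary M), M.norm_Ω]

theorem norm_psi_mul_sub {P V : K →L[ℂ] K} (hP : P ∈ unitary (K →L[ℂ] K))
    (hV : V ∈ unitary (K →L[ℂ] K)) : ‖M.psi (P * V) - M.psi V‖ ≤ cm M P := by
  have h1 : star P * P = 1 := (Unitary.mem_iff.1 hP).1
  have h : M.psi (P * V) - M.psi V = star V (star P ((M.Z * P - P * M.Z) (V M.Ω))) := by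
    have h2 : ∀ x, star P (P x) = x := fun x => by
      rw [← mul_apply_eq_comp, h1]; rfl
    simp [Model.psi, h2]
  rw [h, ContinuousLinearMap.norm_map_of_mem_unitary (Unitary.star_mem hV),
    ContinuousLinearMap.norm_map_of_mem_unitary (Unitary.star_mem hP)]
  refine ((M.Z * P - P * M.Z).le_opNorm _).trans (le_of_eq ?_)
  rw [ContinuousLinearMap.norm_map_of_mem_unitary hV, M.norm_Ω, mul_one]; rfl

theorem norm_psi_sub_psi {V V' : K →L[ℂ] K} (hV : V ∈ unitary (K →L[ℂ] K))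
    (hV' : V' ∈ unitary (K →L[ℂ] K)) :
    ‖M.psi V' - M.psi V‖ ≤ ‖V' M.Ω - V M.Ω‖ + ‖V' (M.psi V) - V (M.psi V)‖ := by
  have h1 : ∀ x, V (star V x) = x := fun x => by
    rw [← mul_apply_eq_comp, (Unitary.mem_iff.1 hV).2]; rfl
  have h2 : ∀ x, V' (star V' x) = x := fun x => by
    rw [← mul_apply_eq_comp, (Unitary.mem_iff.1 hV').2]; rfl
  rw [← ContinuousLinearMap.norm_map_of_mem_unitary hV' (M.psi V' - M.psi V)]
  have h : V' (M.psi V' - M.psi V)
      = M.Z (V' M.Ω - V M.Ω) - (V' (M.psi V) - V (M.psi V)) := by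
    simp [Model.psi, h1, h2]
  rw [h]
  refine (norm_sub_le _ _).trans (le_of_eq ?_)
  rw [ContinuousLinearMap.norm_map_of_mem_unitary (Z_unitary M)]

end Crest.Agent.R339.L
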