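import Crest.Agent.R339.L.Rot
import Crest.Agent.R339.Api.B1

/-!
# R339/L: soft convergence of labelled configurations
-/

set_option autoImplicit false
open MeasureTheory ProbabilityTheory Filter Topology Complex

namespace Crest.Agent.R339.L

variable {E K : Type} [NormedAddCommGroup E] [InnerProductSpace ℂ E]
  [NormedAddCommGroup K] [InnerProductSpace ℂ K] [CompleteSpace K]

/-- measurable fields of vectors in the unit ball. -/
structure Fld (y : ℝ → K) : Prop where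
  meas : StronglyMeasurable y
  le : ∀ l, ‖y l‖ ≤ 1

omit [InnerProductSpace ℂ K] [CompleteSpace K] in
theorem Fld.memLp {y : ℝ → K} (hy : Fld y) (μ : Measure ℝ) [IsFiniteMeasure μ] : MemLp y 2 μ :=
  MemLp.of_bound hy.meas.aestronglyMeasurable 1 (ae_of_all _ hy.le)

omit [InnerProductSpace ℂ K] [CompleteSpace K] in
theorem Fld.norm_sub_le {y y' : ℝ → K} (hy : Fld y) (hy' : Fld y') (l : ℝ) : ‖y l - y' l‖ ≤ 2 :=
  (_root_.norm_sub_le _ _).trans (by have := hy.le l; have := hy'.le l; linarith)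

omit [InnerProductSpace ℂ K] [CompleteSpace K] in
theorem Fld.integrable {y y' : ℝ → K} (hy : Fld y) (hy' : Fld y') (μ : Measure ℝ)
    [IsFiniteMeasure μ] : Integrable (fun l => ‖y l - y' l‖) μ :=
  integrable_of_bdd (hy.meas.sub hy'.meas).norm 2 fun l => by
    rw [norm_norm]; exact hy.norm_sub_le hy' l

theorem Nice.fld {V : ℝ → K →L[ℂ] K} (hV : Nice V) {y : ℝ → K} (hy : Fld y) :
    Fld fun l => V l (y l) :=
  ⟨(isBoundedBilinearMap_apply (𝕜 := ℂ) (E := K) (F := K)).continuous.comp_stronglyMeasurable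
    (hV.meas.prodMk hy.meas),
   fun l => by rw [ContinuousLinearMap.norm_map_of_mem_unitary (hV.mem l)]; exact hy.le l⟩

/-- `L¹` convergence of fields. -/
def FC (y' : ℕ → ℝ → K) (y : ℝ → K) : Prop :=
  Tendsto (fun n => ∫ l, ‖y' n l - y l‖ ∂(gaussianReal 0 1)) atTop (𝓝 0)

/-- convergence of configurations. -/
def Cv (V' : ℕ → ℝ → K →L[ℂ] K) (V : ℝ → K →L[ℂ] K) : Prop :=
  ∀ y, Fld y → FC (fun n l => V' n l (y l)) fun l => V l (y l)

omit [InnerProductSpace ℂ K] [CompleteSpace K] in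
theorem FC.of_le {y' : ℕ → ℝ → K} {y : ℝ → K} {g : ℕ → ℝ → ℝ}
    (hg : ∀ n, Integrable (g n) (gaussianReal 0 1)) (h : ∀ n l, ‖y' n l - y l‖ ≤ g n l)
    (ht : Tendsto (fun n => ∫ l, g n l ∂(gaussianReal 0 1)) atTop (𝓝 0)) : FC y' y :=
  squeeze_zero (fun _ => integral_nonneg fun _ => norm_nonneg _)
    (fun n => integral_mono_of_nonneg (ae_of_all _ fun _ => norm_nonneg _) (hg n)
      (ae_of_all _ (h n))) ht

theorem tendsto_integral_add {g h : ℕ → ℝ → ℝ} (hg : ∀ n, Integrable (g n) (gaussianReal 0 1))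
    (hh : ∀ n, Integrable (h n) (gaussianReal 0 1))
    (tg : Tendsto (fun n => ∫ l, g n l ∂(gaussianReal 0 1)) atTop (𝓝 0))
    (th : Tendsto (fun n => ∫ l, h n l ∂(gaussianReal 0 1)) atTop (𝓝 0)) :
    Tendsto (fun n => ∫ l, (g n l + h n l) ∂(gaussianReal 0 1)) atTop (𝓝 0) := by
  have := tg.add th
  rw [add_zero] at this
  exact this.congr fun n => (integral_add (hg n) (hh n)).symm

variable (M : Model E K)

theorem Nice.fld_psi {V : ℝ → K →L[ℂ] K} (hV : Nice V) : Fld (M.psiL V) :=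
  ⟨hV.psi_meas M, fun l => (norm_psi M (hV.mem l)).le⟩

theorem fld_Ω : Fld fun _ => M.Ω := ⟨stronglyMeasurable_const, fun _ => M.norm_Ω.le⟩

theorem Cv.psi {V' : ℕ → ℝ → K →L[ℂ] K} {V : ℝ → K →L[ℂ] K} (h : Cv V' V) (hV' : ∀ n, Nice (V' n))
    (hV : Nice V) : FC (fun n => M.psiL (V' n)) (M.psiL V) := by
  have i1 := fun n => ((hV' n).fld (fld_Ω M)).integrable (hV.fld (fld_Ω M)) (gaussianReal 0 1)
  have i2 := fun n => ((hV' n).fld (hV.fld_psi M)).integrable (hV.fld (hV.fld_psi M))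
    (gaussianReal 0 1)
  exact FC.of_le (fun n => (i1 n).add (i2 n))
    (fun n l => norm_psi_sub_psi M (hV.mem l) ((hV' n).mem l))
    (tendsto_integral_add i1 i2 (h _ (fld_Ω M)) (h _ (hV.fld_psi M)))

theorem Cv.left_mul {V' : ℕ → ℝ → K →L[ℂ] K} {V : ℝ → K →L[ℂ] K} (h : Cv V' V)
    {R : ℝ → K →L[ℂ] K} (hR : Nice R) : Cv (fun n l => R l * V' n l) fun l => R l * V l := by
  intro y hy
  refine (h y hy).congr fun n => integral_congr_ae (ae_of_all _ fun l => ?_)
  simp only [mul_apply_eq_comp]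
  rw [← map_sub, ContinuousLinearMap.norm_map_of_mem_unitary (hR.mem l)]

omit [CompleteSpace K] in
theorem Cv.shift {V' : ℕ → ℝ → K →L[ℂ] K} {V : ℝ → K →L[ℂ] K} (h : Cv V' V) (k : ℕ) :
    Cv (fun n => V' (n + k)) V :=
  fun y hy => (tendsto_add_atTop_iff_nat k).2 (h y hy)

theorem FC.JJ (j : Lp K 2 (gaussianReal 0 1) →ₗᵢ[ℂ] E) {y' : ℕ → ℝ → K} {y : ℝ → K}
    (h : FC y' y) (hy' : ∀ n, Fld (y' n)) (hy : Fld y) :
    Tendsto (fun n => JJ j (y' n)) atTop (𝓝 (JJ j y)) := by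
  rw [tendsto_iff_norm_sub_tendsto_zero]
  have h1 : Tendsto (fun n => ‖R339.JJ j (y' n) - R339.JJ j y‖ ^ 2) atTop (𝓝 0) := by
    have h2 := h.const_mul 2
    rw [mul_zero] at h2
    refine squeeze_zero (fun _ => sq_nonneg _) (fun n => ?_) h2
    have hm : MemLp (fun l => y' n l - y l) 2 (gaussianReal 0 1) :=
      ((hy' n).memLp _).sub (hy.memLp _)
    rw [← JJ_sub j ((hy' n).memLp _) (hy.memLp _), JJ_norm_sq j hm, ← integral_const_mul]
    refine integral_mono_of_nonneg (ae_of_all _ fun _ => sq_nonneg _)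
      (((hy' n).integrable hy _).const_mul 2) (ae_of_all _ fun l => ?_)
    have := (hy' n).norm_sub_le hy l
    have := norm_nonneg (y' n l - y l)
    simp only
    nlinarith
  have h3 := (Real.continuous_sqrt.tendsto 0).comp h1
  rw [Real.sqrt_zero] at h3
  refine h3.congr fun n => ?_
  simp [Real.sqrt_sq (norm_nonneg _)]

theorem FC.EnV (j : Lp K 2 (gaussianReal 0 1) →ₗᵢ[ℂ] E) {y' : ℕ → ℝ → K} {y : ℝ → K}
    (h : FC y' y) (hy' : ∀ n, Fld (y' n)) (hy : Fld y) :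
    Tendsto (fun n => M.EnV j (y' n)) atTop (𝓝 (M.EnV j y)) := by
  have h1 := h.JJ j hy' hy
  rw [tendsto_iff_norm_sub_tendsto_zero]
  have h2 := (h1.norm.add_const ‖R339.JJ j y‖).mul (tendsto_iff_norm_sub_tendsto_zero.1 h1)
  rw [mul_zero] at h2
  exact squeeze_zero (fun _ => norm_nonneg _)
    (fun n => Model.EnV_lip j M ((hy' n).memLp _) (hy.memLp _)) h2

theorem Cv.cL {V' : ℕ → ℝ → K →L[ℂ] K} {V : ℝ → K →L[ℂ] K} (h : Cv V' V) (hV' : ∀ n, Nice (V' n))
    (hV : Nice V) : Tendsto (fun n => M.cL (V' n)) atTop (𝓝 (M.cL V)) := by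
  rw [tendsto_iff_norm_sub_tendsto_zero]
  exact squeeze_zero (fun _ => norm_nonneg _) (fun n => abs_cL_sub M hV (hV' n)) (h.psi M hV' hV)

/-- `V` is a limit of admissible configurations. -/
def Sim (j : Lp K 2 (gaussianReal 0 1) →ₗᵢ[ℂ] E) (V : ℝ → K →L[ℂ] K) : Prop :=
  Nice V ∧ ∃ V' : ℕ → ℝ → K →L[ℂ] K, (∀ n, M.LGood j (V' n)) ∧ Cv V' V

theorem sim_one (j : Lp K 2 (gaussianReal 0 1) →ₗᵢ[ℂ] E) : Sim M j fun _ => 1 :=
  ⟨Nice.one, fun _ _ => 1, fun _ => Model.LGood.one, fun y _ => by simp [FC]⟩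

theorem sim_cost {j : Lp K 2 (gaussianReal 0 1) →ₗᵢ[ℂ] E} {V : ℝ → K →L[ℂ] K} (h : Sim M j V)
    (γ : ℝ) : Sim M j (M.costL j γ V) := by
  obtain ⟨hV, V', hg, hc⟩ := h
  have hV' := fun n => lgood_nice M (hg n)
  refine ⟨(Nice.const (WZ_unitary M _)).mul hV, fun n => M.costL j γ (V' n),
    fun n => Model.LGood.cost _ γ (hg n), fun y hy => ?_⟩
  set d : E := ((γ : ℝ) : ℂ) • JJ j (M.psiL V) with hd
  set d' : ℕ → E := fun n => ((γ : ℝ) : ℂ) • JJ j (M.psiL (V' n)) with hd'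
  have ht : Tendsto d' atTop (𝓝 d) :=
    ((hc.psi M hV' hV).JJ j (fun n => (hV' n).fld_psi M) (hV.fld_psi M)).const_smul _
  have f0 := hV.fld hy
  have f1 := fun e : E => (Nice.const (WZ_unitary M e)).fld f0
  have i1 := fun n => ((hV' n).fld hy).integrable f0 (gaussianReal 0 1)
  have i2 := fun n => (f1 (d' n)).integrable (f1 d) (gaussianReal 0 1)
  refine FC.of_le (fun n => (i1 n).add (i2 n)) (fun n l => ?_)
    (tendsto_integral_add i1 i2 (hc y hy) ?_)
  · change ‖M.WZ (d' n) (V' n l (y l)) - M.WZ d (V l (y l))‖ ≤ ‖V' n l (y l) - V l (y l)‖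
      + ‖M.WZ (d' n) (V l (y l)) - M.WZ d (V l (y l))‖
    rw [← ContinuousLinearMap.norm_map_of_mem_unitary (WZ_unitary M (d' n))
      (V' n l (y l) - V l (y l)), map_sub]
    exact norm_sub_le_norm_sub_add_norm_sub _ _ _
  · have := tendsto_integral_of_dominated_convergence (μ := gaussianReal 0 1)
      (F := fun n l => ‖M.WZ (d' n) (V l (y l)) - M.WZ d (V l (y l))‖) (f := fun _ => 0)
      (fun _ => 2) (fun n => (i2 n).aestronglyMeasurable) (integrable_const _)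
      (fun n => ae_of_all _ fun l => by
        rw [norm_norm]; exact (f1 (d' n)).norm_sub_le (f1 d) l)
      (ae_of_all _ fun l => by
        rw [← tendsto_iff_norm_sub_tendsto_zero]
        exact ((M.continuous_WZ₂.comp (continuous_id.prodMk continuous_const)).tendsto d).comp ht)
    simpa using this

theorem sim_rot {j : Lp K 2 (gaussianReal 0 1) →ₗᵢ[ℂ] E} {V : ℝ → K →L[ℂ] K} (h : Sim M j V)
    (hcL : 19 / 20 ≤ M.cL V) {S : Set ℝ} (hS : MeasurableSet S) (hev : ∀ l, -l ∈ S ↔ l ∈ S)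
    (hm : (gaussianReal 0 1).real S ≤ 1 / 100) (θ : ℝ) : Sim M j (M.rotS S θ V) := by
  obtain ⟨hV, V0, hg0, hc0⟩ := h
  have hR : Nice fun l => M.RX (S.indicator (fun _ => θ) l) :=
    nice_RX M (measurable_const.indicator hS)
  have hev' := (hc0.cL M (fun n => lgood_nice M (hg0 n)) hV).eventually
    (lt_mem_nhds (show 9 / 10 < M.cL V by linarith))
  obtain ⟨k, hk⟩ := eventually_atTop.1 hev'
  set V' := fun n => V0 (n + k) with hV'def
  have hg : ∀ n, M.LGood j (V' n) := fun n => hg0 _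
  have hc : Cv V' V := hc0.shift k
  have hV' := fun n => lgood_nice M (hg n)
  choose U hU hUg hUe using fun n : ℕ => rot_sim M (hg n) (hk (n + k) (by omega)).le hS hev hm θ
    (ε := 1 / ((n : ℝ) + 1)) (by positivity)
  refine ⟨hR.mul hV, fun n l => U n l * V' n l, hUg, fun y hy => ?_⟩
  have i1 : ∀ n, Integrable (fun l => ‖U n l - M.RX (S.indicator (fun _ => θ) l)‖)
      (gaussianReal 0 1) := fun n =>
    integrable_of_bdd ((hU n).meas.sub hR.meas).norm 2 fun l => by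
      rw [norm_norm]
      refine (norm_sub_le _ _).trans ?_
      have := norm_le_one_of_unitary ((hU n).mem l)
      have := norm_le_one_of_unitary (hR.mem l)
      linarith
  have i2 := fun n => ((hV' n).fld hy).integrable (hV.fld hy) (gaussianReal 0 1)
  refine FC.of_le (fun n => (i1 n).add (i2 n)) (fun n l => ?_)
    (tendsto_integral_add i1 i2 ?_ (hc y hy))
  · change ‖U n l (V' n l (y l)) - M.RX (S.indicator (fun _ => θ) l) (V l (y l))‖
      ≤ ‖U n l - M.RX (S.indicator (fun _ => θ) l)‖ + ‖V' n l (y l) - V l (y l)‖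
    refine (norm_sub_le_norm_sub_add_norm_sub _
      (M.RX (S.indicator (fun _ => θ) l) (V' n l (y l))) _).trans (add_le_add ?_ ?_)
    · rw [← sub_apply]
      refine (ContinuousLinearMap.le_opNorm _ _).trans ?_
      exact mul_le_of_le_one_right (norm_nonneg _) (((hV' n).fld hy).le l)
    · rw [← map_sub, ContinuousLinearMap.norm_map_of_mem_unitary (hR.mem l)]
  · exact squeeze_zero (fun _ => integral_nonneg fun _ => norm_nonneg _) hUe
      tendsto_one_div_add_atTop_nhds_zero_nat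

theorem sim_energy {j : Lp K 2 (gaussianReal 0 1) →ₗᵢ[ℂ] E} {V : ℝ → K →L[ℂ] K} (h : Sim M j V)
    (θ : ℝ) {ε : ℝ} (hε : 0 < ε) : ∃ V', M.LGood j V' ∧ M.EnL j θ V - ε ≤ M.EnL j θ V' := by
  obtain ⟨hV, V', hg, hc⟩ := h
  have hR : Nice fun _ : ℝ => M.RX θ := Nice.const (RX_unitary M θ)
  have hV' := fun n => hR.mul (lgood_nice M (hg n))
  have h1 := ((hc.left_mul hR).psi M hV' (hR.mul hV)).EnV M j (fun n => (hV' n).fld_psi M)
    ((hR.mul hV).fld_psi M)
  obtain ⟨n, hn⟩ := (h1.eventually (lt_mem_nhds (sub_lt_self _ hε))).exists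
  exact ⟨V' n, hg n, hn.le⟩

end Crest.Agent.R339.L
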