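import Mathlib

/-!
# R339/L: even trigonometric polynomials approximate even indicators in `L¹(γ)`
-/

set_option autoImplicit false
open MeasureTheory ProbabilityTheory Filter Topology

namespace Crest.Agent.R339.L

/-- even real trigonometric polynomials `Σ c cos (ω l)`. -/
def ETrig : Submodule ℝ (ℝ → ℝ) :=
  Submodule.span ℝ (Set.range fun (ω : ℝ) (l : ℝ) => Real.cos (ω * l))

theorem ETrig_cont {F : ℝ → ℝ} (hF : F ∈ ETrig) : Continuous F := by
  induction hF using Submodule.span_induction with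
  | mem f hf => obtain ⟨ω, rfl⟩ := hf; fun_prop
  | zero => exact continuous_const
  | add f g _ _ hf hg => exact hf.add hg
  | smul a f _ hf => exact hf.const_smul a

theorem ETrig_bdd {F : ℝ → ℝ} (hF : F ∈ ETrig) : ∃ C, ∀ l, |F l| ≤ C := by
  induction hF using Submodule.span_induction with
  | mem f hf => obtain ⟨ω, rfl⟩ := hf; exact ⟨1, fun l => Real.abs_cos_le_one _⟩
  | zero => exact ⟨0, fun l => by simp⟩
  | add f g _ _ hf hg =>
    obtain ⟨C, hC⟩ := hf
    obtain ⟨D, hD⟩ := hg
    exact ⟨C + D, fun l => (abs_add_le _ _).trans (add_le_add (hC l) (hD l))⟩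
  | smul a f _ hf =>
    obtain ⟨C, hC⟩ := hf
    refine ⟨|a| * C, fun l => ?_⟩
    simp only [Pi.smul_apply, smul_eq_mul, abs_mul]
    exact mul_le_mul_of_nonneg_left (hC l) (abs_nonneg a)

theorem trig_uniq {γ : Measure ℝ} [IsFiniteMeasure γ] {f : ℝ → ℝ} (hf : Integrable f γ)
    (hc : ∀ ω, ∫ l, f l * Real.cos (ω * l) ∂γ = 0) (hs : ∀ ω, ∫ l, f l * Real.sin (ω * l) ∂γ = 0) :
    f =ᵐ[γ] 0 := by
  have key : ∀ g : ℝ → ℝ, Integrable g γ → ∀ t, charFun (γ.withDensity fun l => ENNReal.ofReal (g l)) t =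
      ∫ l, (max (g l) 0 : ℝ) • Complex.exp (t * l * Complex.I) ∂γ := by
    intro g hg t
    rw [charFun_apply_real, integral_withDensity_eq_integral_toReal_smul₀ hg.aemeasurable.ennreal_ofReal
      (Eventually.of_forall fun l => ENNReal.ofReal_lt_top)]
    simp only [ENNReal.toReal_ofReal']
  have hi : ∀ g : ℝ → ℝ, Integrable g γ → ∀ t : ℝ,
      Integrable (fun l : ℝ => g l • Complex.exp (t * l * Complex.I)) γ := by
    intro g hg t
    refine hg.norm.mono' (hg.aestronglyMeasurable.smul (Continuous.aestronglyMeasurable (by fun_prop)))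
      (Eventually.of_forall fun l => ?_)
    rw [norm_smul, ← Complex.ofReal_mul, Complex.norm_exp_ofReal_mul_I, mul_one]
  haveI := isFiniteMeasure_withDensity_ofReal hf.2
  haveI := isFiniteMeasure_withDensity_ofReal hf.neg.2
  have h1 : (γ.withDensity fun l => ENNReal.ofReal (f l)) = γ.withDensity fun l => ENNReal.ofReal ((-f) l) := by
    refine Measure.ext_of_charFun (funext fun t => ?_)
    rw [key f hf, key _ hf.neg, ← sub_eq_zero, ← integral_sub (hi _ hf.pos_part t) (hi _ hf.neg.pos_part t)]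
    have e : ∀ l : ℝ, (max (f l) 0 : ℝ) • Complex.exp (t * l * Complex.I) -
        (max ((-f) l) 0 : ℝ) • Complex.exp (t * l * Complex.I) = f l • Complex.exp (t * l * Complex.I) := by
      intro l
      rw [← sub_smul, Pi.neg_apply, max_zero_sub_max_neg_zero_eq_self]
    simp only [e]
    refine Complex.ext ?_ ?_
    · have := hc t
      rw [← RCLike.re_to_complex, ← integral_re (hi f hf t)]
      simpa [Complex.exp_re] using this
    · have := hs t
      rw [← RCLike.im_to_complex, ← integral_im (hi f hf t)]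
      simpa [Complex.exp_im] using this
  rw [withDensity_eq_iff hf.aemeasurable.ennreal_ofReal hf.neg.aemeasurable.ennreal_ofReal
    ((lintegral_ofReal_le_lintegral_enorm f).trans_lt hf.2).ne] at h1
  filter_upwards [h1] with l hl
  have h2 := congrArg ENNReal.toReal hl
  simp only [ENNReal.toReal_ofReal', Pi.neg_apply] at h2
  have h3 := max_zero_sub_max_neg_zero_eq_self (f l)
  simp only [Pi.zero_apply]
  linarith

/-- classes with a representative whose even part is an even trigonometric polynomial -/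
def trigT (γ : Measure ℝ) : Submodule ℝ (Lp ℝ 2 γ) where
  carrier := {x | ∃ G : ℝ → ℝ, (fun l => (G l + G (-l)) / 2) ∈ ETrig ∧ x =ᵐ[γ] G}
  zero_mem' := ⟨0, by convert ETrig.zero_mem using 1; funext l; simp, Lp.coeFn_zero _ _ _⟩
  add_mem' := by
    rintro x y ⟨G, h1, h2⟩ ⟨G', h1', h2'⟩
    refine ⟨G + G', ?_, (Lp.coeFn_add x y).trans (h2.add h2')⟩
    convert ETrig.add_mem h1 h1' using 1
    funext l; simp only [Pi.add_apply]; ring
  smul_mem' := by
    rintro a x ⟨G, h1, h2⟩
    refine ⟨a • G, ?_, (Lp.coeFn_smul a x).trans (h2.const_smul a)⟩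
    convert ETrig.smul_mem a h1 using 1
    funext l; simp only [Pi.smul_apply, smul_eq_mul]; ring

theorem trigT_dense (γ : Measure ℝ) [IsFiniteMeasure γ] : (trigT γ).topologicalClosure = ⊤ := by
  rw [Submodule.topologicalClosure_eq_top_iff, Submodule.eq_bot_iff]
  intro f hf
  have key : ∀ G : ℝ → ℝ, Continuous G → (∀ l, |G l| ≤ 1) → (fun l => (G l + G (-l)) / 2) ∈ ETrig →
      ∫ l, f l * G l ∂γ = 0 := by
    intro G h1 h2 h3
    have hm : MemLp G 2 γ := MemLp.of_bound h1.aestronglyMeasurable 1 (Eventually.of_forall h2)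
    have h4 := (Submodule.mem_orthogonal _ _).1 hf (hm.toLp G) ⟨G, h3, hm.coeFn_toLp⟩
    rw [L2.inner_def] at h4
    rw [← h4]
    refine integral_congr_ae ?_
    filter_upwards [hm.coeFn_toLp] with l hl
    simp [hl]
  refine Lp.eq_zero_iff_ae_eq_zero.2 (trig_uniq ((Lp.memLp f).integrable one_le_two) (fun ω => ?_) fun ω => ?_)
  · refine key _ (by fun_prop) (fun l => Real.abs_cos_le_one _) (Submodule.subset_span ⟨ω, ?_⟩)
    funext l; simp
  · refine key _ (by fun_prop) (fun l => Real.abs_sin_le_one _) ?_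
    convert ETrig.zero_mem using 1
    funext l; simp

/-- Recipe: in the real Hilbert space `Lp ℝ 2 γ` the span `T` of all `cos (ω ·)`, `sin (ω ·)` is dense:
if `f ⊥ T`, the finite measures `γ.withDensity (ENNReal.ofReal ∘ f)` and
`γ.withDensity (ENNReal.ofReal ∘ (-f))` have the same `charFun` (real and imaginary parts), so they are
equal (`MeasureTheory.Measure.ext_of_charFun`), so `f⁺ = f⁻` a.e. (`withDensity_eq_iff`), so `f = 0`
(`Submodule.topologicalClosure_eq_top_iff`).  Take `G = F + H` (`F ∈ ETrig`, `H` in the span of the sines,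
odd) with `‖G - θ 1_S‖₂ ≤ ε`; `L¹ ≤ L²` on a probability space; with `f = θ 1_S` even,
`F l - f l = ((G l - f l) + (G (-l) - f (-l))) / 2` and `γ` is invariant under `l ↦ -l`
(`gaussianReal_map_neg`). -/
theorem trig_approx (S : Set ℝ) (hS : MeasurableSet S) (hev : ∀ l, -l ∈ S ↔ l ∈ S) (θ : ℝ)
    {ε : ℝ} (hε : 0 < ε) :
    ∃ F ∈ ETrig, ∫ l, |F l - S.indicator (fun _ => θ) l| ∂(gaussianReal 0 1) ≤ ε := by
  set γ := gaussianReal 0 1 with hγ
  set f : ℝ → ℝ := S.indicator fun _ => θ with hf
  have hm : MemLp f 2 γ := (memLp_const θ).indicator hS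
  have h1 : hm.toLp f ∈ closure (trigT γ : Set (Lp ℝ 2 γ)) := by
    rw [← Submodule.topologicalClosure_coe, trigT_dense]; trivial
  obtain ⟨x, ⟨G, hG, hx⟩, hd⟩ := Metric.mem_closure_iff.1 h1 ε hε
  refine ⟨_, hG, ?_⟩
  have h2 : (fun l => G l - f l) =ᵐ[γ] (x - hm.toLp f : Lp ℝ 2 γ) := by
    filter_upwards [Lp.coeFn_sub x (hm.toLp f), hx, hm.coeFn_toLp] with l a b c
    rw [a, Pi.sub_apply, b, c]
  have h3 : Integrable (fun l => G l - f l) γ := ((Lp.memLp _).integrable one_le_two).congr h2.symm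
  have h4 : ∫ l, |G l - f l| ∂γ ≤ ε := by
    have h5 := integral_norm_eq_lintegral_enorm h3.aestronglyMeasurable
    simp only [Real.norm_eq_abs] at h5
    rw [h5, ← eLpNorm_one_eq_lintegral_enorm, eLpNorm_congr_ae h2]
    rw [dist_comm, dist_eq_norm, Lp.norm_def] at hd
    exact (ENNReal.toReal_mono (Lp.eLpNorm_ne_top _)
      (eLpNorm_le_eLpNorm_of_exponent_le one_le_two (Lp.aestronglyMeasurable _))).trans hd.le
  have hp : MeasurePreserving (fun l : ℝ => -l) γ γ := ⟨measurable_neg, by rw [hγ, gaussianReal_map_neg, neg_zero]⟩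
  have h5 : Integrable (fun l => |G (-l) - f (-l)|) γ := hp.integrable_comp_of_integrable h3.abs
  have h6 : ∫ l, |G (-l) - f (-l)| ∂γ = ∫ l, |G l - f l| ∂γ :=
    hp.integral_comp (MeasurableEquiv.neg ℝ).measurableEmbedding fun l => |G l - f l|
  have h7 : ∀ l, f (-l) = f l := fun l => by
    by_cases h : l ∈ S
    · rw [hf, Set.indicator_of_mem h, Set.indicator_of_mem ((hev l).2 h)]
    · rw [hf, Set.indicator_of_notMem h, Set.indicator_of_notMem fun h' => h ((hev l).1 h')]
  refine (integral_mono_of_nonneg (Eventually.of_forall fun l => abs_nonneg _)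
    ((h3.abs.add h5).div_const 2) (Eventually.of_forall fun l => ?_)).trans ?_
  · simp only [Pi.add_apply, h7]
    have := abs_add_le (G l - f l) (G (-l) - f l)
    rw [show (G l + G (-l)) / 2 - f l = (G l - f l + (G (-l) - f l)) / 2 by ring, abs_div, abs_two]
    linarith
  · simp only [Pi.add_apply]
    rw [integral_div, integral_add h3.abs h5, h6]
    linarith

end Crest.Agent.R339.L
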