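import Crest.Agent.R339.L.Alg
import Crest.Agent.R339.L.Trig

/-!
# R339/L: words in global mixers and label rotations; generated functions
-/

set_option autoImplicit false
open MeasureTheory ProbabilityTheory Filter Topology Complex

namespace Crest.Agent.R339.L

variable {E K : Type} [NormedAddCommGroup E] [InnerProductSpace ℂ E]
  [NormedAddCommGroup K] [InnerProductSpace ℂ K] [CompleteSpace K]

/-- measurable unitary families. -/
structure Nice (V : ℝ → K →L[ℂ] K) : Prop where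
  meas : StronglyMeasurable V
  mem : ∀ l, V l ∈ unitary (K →L[ℂ] K)

theorem Nice.mul {U V : ℝ → K →L[ℂ] K} (hU : Nice U) (hV : Nice V) : Nice fun l => U l * V l :=
  ⟨hU.meas.mul hV.meas, fun l => mul_mem (hU.mem l) (hV.mem l)⟩

theorem Nice.const {T : K →L[ℂ] K} (hT : T ∈ unitary (K →L[ℂ] K)) : Nice fun _ => T :=
  ⟨stronglyMeasurable_const, fun _ => hT⟩

theorem Nice.one : Nice fun _ => (1 : K →L[ℂ] K) := Nice.const (one_mem _)

theorem Nice.comp {V : ℝ → K →L[ℂ] K} (hV : Nice V) {u : ℝ → ℝ} (hu : Measurable u) :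
    Nice fun l => V (u l) :=
  ⟨hV.meas.comp_measurable hu, fun _ => hV.mem _⟩

variable (M : Model E K)

theorem nice_RX {F : ℝ → ℝ} (hF : Measurable F) : Nice fun l => M.RX (F l) :=
  ⟨(continuous_RX M).comp_stronglyMeasurable hF.stronglyMeasurable, fun _ => RX_unitary M _⟩

theorem nice_RZ {F : ℝ → ℝ} (hF : Measurable F) : Nice fun l => M.RZ (F l) :=
  ⟨(continuous_RZ M).comp_stronglyMeasurable hF.stronglyMeasurable, fun _ => RZ_unitary M _⟩

/-- words with total mixer angle at most `a`. -/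
inductive Wb : ℝ → (ℝ → K →L[ℂ] K) → Prop
  | one : Wb 0 (fun _ => 1)
  | rot (a U) (θ : ℝ) : Wb a U → Wb (a + |θ|) (fun l => M.RX θ * U l)
  | zph (a U) (γ : ℝ) : Wb a U → Wb a (fun l => M.RZ (γ * l) * U l)
  | mono (a b U) : a ≤ b → Wb a U → Wb b U

variable {M}

theorem Wb.nice {a : ℝ} {U : ℝ → K →L[ℂ] K} (h : Wb M a U) : Nice U := by
  induction h with
  | one => exact Nice.one
  | rot a U θ _ ih => exact (Nice.const (RX_unitary M θ)).mul ih
  | zph a U γ _ ih => exact (nice_RZ M (by fun_prop)).mul ih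
  | mono a b U _ _ ih => exact ih

theorem Wb.cm_le {a : ℝ} {U : ℝ → K →L[ℂ] K} (h : Wb M a U) (l : ℝ) : cm M (U l) ≤ 2 * a := by
  induction h with
  | one => simp [cm_one]
  | rot a U θ hU ih =>
    have h1 := cm_mul M (RX_unitary M θ) (hU.nice.mem l)
    have h2 := cm_RX M θ
    have h3 := Real.abs_sin_le_abs (x := θ)
    linarith
  | zph a U γ hU ih =>
    have h1 := cm_mul M (RZ_unitary M (γ * l)) (hU.nice.mem l)
    rw [cm_RZ] at h1
    linarith
  | mono a b U hab _ ih => linarith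

theorem Wb.mul {a b : ℝ} {U U' : ℝ → K →L[ℂ] K} (h : Wb M a U) (h' : Wb M b U') :
    Wb M (a + b) (fun l => U' l * U l) := by
  induction h' with
  | one => simpa using h
  | rot b U' θ _ ih =>
    have := Wb.rot _ _ θ ih
    simpa only [add_assoc, mul_assoc] using this
  | zph b U' γ _ ih =>
    have := Wb.zph _ _ γ ih
    simpa only [mul_assoc] using this
  | mono b c U' hbc _ ih => exact Wb.mono _ _ _ (by linarith) ih

variable (M)

/-- `F` is generated: `RX (t F l)` is approximated to second order by a word of size `O(t)`. -/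
def Gen (F : ℝ → ℝ) : Prop :=
  ∃ C : ℝ, 0 ≤ C ∧ ∀ t : ℝ, ∃ T, Wb M (C * |t|) T ∧ ∀ l, ‖T l - M.RX (t * F l)‖ ≤ C * t ^ 2

theorem gen_zero : Gen M 0 :=
  ⟨0, le_rfl, fun t => ⟨fun _ => 1, by simpa using Wb.one, fun l => by simp [RX_zero]⟩⟩

theorem norm_mul_sub_mul {A B A' B' : K →L[ℂ] K} (hB : B ∈ unitary (K →L[ℂ] K))
    (hA' : A' ∈ unitary (K →L[ℂ] K)) : ‖A * B - A' * B'‖ ≤ ‖A - A'‖ + ‖B - B'‖ := by
  have h : A * B - A' * B' = (A - A') * B + A' * (B - B') := by noncomm_ring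
  rw [h]
  refine (norm_add_le _ _).trans (le_of_eq ?_)
  rw [CStarRing.norm_mul_mem_unitary _ hB, CStarRing.norm_mem_unitary_mul _ hA']

theorem gen_add {F G : ℝ → ℝ} (hF : Gen M F) (hG : Gen M G) : Gen M (F + G) := by
  obtain ⟨C, hC, hF⟩ := hF
  obtain ⟨D, hD, hG⟩ := hG
  refine ⟨D + C, by positivity, fun t => ?_⟩
  obtain ⟨T, hT, hT'⟩ := hF t
  obtain ⟨S, hS, hS'⟩ := hG t
  refine ⟨fun l => T l * S l, by simpa only [add_mul] using hS.mul hT, fun l => ?_⟩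
  rw [Pi.add_apply, mul_add, RX_add]
  have := norm_mul_sub_mul (A := T l) (B' := M.RX (t * G l)) (hS.nice.mem l)
    (RX_unitary M (t * F l))
  have h1 := hT' l
  have h2 := hS' l
  linarith

theorem gen_smul (c : ℝ) {F : ℝ → ℝ} (hF : Gen M F) : Gen M (c • F) := by
  obtain ⟨C, hC, hF⟩ := hF
  refine ⟨C * (|c| + c ^ 2), by positivity, fun t => ?_⟩
  obtain ⟨T, hT, hT'⟩ := hF (t * c)
  refine ⟨T, Wb.mono _ _ _ ?_ hT, fun l => ?_⟩
  · rw [abs_mul]
    have : 0 ≤ C * c ^ 2 * |t| := by positivity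
    nlinarith
  · rw [Pi.smul_apply, smul_eq_mul, ← mul_assoc]
    have : 0 ≤ C * |c| * t ^ 2 := by positivity
    have h1 := hT' l
    nlinarith

theorem RZ_X_RZ (φ : ℝ) : M.RZ (-φ) * M.X * M.RZ φ + M.RZ φ * M.X * M.RZ (-φ)
    = ((2 * Real.cos (2 * φ) : ℝ) : ℂ) • M.X := by
  have h1 : ∀ a, M.RZ a * M.X = M.X * M.RZ (-a) := fun a => by
    simp only [Model.RZ, sub_mul, mul_sub, smul_mul_assoc, mul_smul_comm, one_mul, mul_one, M.Z_X,
      Real.cos_neg, Real.sin_neg]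
    push_cast
    module
  rw [h1, h1, neg_neg, mul_assoc, mul_assoc, ← RZ_add, ← RZ_add, ← mul_add,
    show -φ + -φ = -(2 * φ) by ring, show φ + φ = 2 * φ by ring]
  simp only [Model.RZ, Real.cos_neg, Real.sin_neg, mul_add, mul_sub, mul_smul_comm, mul_one]
  push_cast
  module

theorem conj_lin (φ a : ℝ) : ‖M.RZ (-φ) * M.RX a * M.RZ φ
    - (1 - (I * (a : ℂ)) • (M.RZ (-φ) * M.X * M.RZ φ))‖ ≤ 2 * a ^ 2 := by
  have h0 : M.RZ (-φ) * M.RZ φ = 1 := by rw [← RZ_add, neg_add_cancel, RZ_zero]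
  have h : M.RZ (-φ) * M.RX a * M.RZ φ - (1 - (I * (a : ℂ)) • (M.RZ (-φ) * M.X * M.RZ φ))
      = M.RZ (-φ) * (M.RX a - (1 - (I * (a : ℂ)) • M.X)) * M.RZ φ := by
    simp only [mul_sub, sub_mul, mul_one, h0, mul_smul_comm, smul_mul_assoc]
  rw [h, CStarRing.norm_mul_mem_unitary _ (RZ_unitary M _),
    CStarRing.norm_mem_unitary_mul _ (RZ_unitary M _)]
  exact norm_rot_sub_lin (norm_X M) a

theorem conj_sub_one (φ a : ℝ) : ‖M.RZ (-φ) * M.RX a * M.RZ φ - 1‖ ≤ 2 * |a| := by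
  have h0 : M.RZ (-φ) * M.RZ φ = 1 := by rw [← RZ_add, neg_add_cancel, RZ_zero]
  have h : M.RZ (-φ) * M.RX a * M.RZ φ - 1 = M.RZ (-φ) * (M.RX a - M.RX 0) * M.RZ φ := by
    simp only [mul_sub, sub_mul, mul_one, h0, RX_zero]
  rw [h, CStarRing.norm_mul_mem_unitary _ (RZ_unitary M _),
    CStarRing.norm_mem_unitary_mul _ (RZ_unitary M _)]
  simpa using norm_RX_sub M a 0

theorem step_est (φ a : ℝ) :
    ‖(M.RZ (-φ) * M.RX a * M.RZ φ) * (M.RZ φ * M.RX a * M.RZ (-φ))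
      - M.RX (2 * a * Real.cos (2 * φ))‖ ≤ 14 * a ^ 2 := by
  set T1 := M.RZ (-φ) * M.RX a * M.RZ φ with hT1
  set T2 := M.RZ φ * M.RX a * M.RZ (-φ) with hT2
  set A1 := M.RZ (-φ) * M.X * M.RZ φ with hA1
  set A2 := M.RZ φ * M.X * M.RZ (-φ) with hA2
  have e1 : ‖T1 - (1 - (I * (a : ℂ)) • A1)‖ ≤ 2 * a ^ 2 := conj_lin M φ a
  have e2 : ‖T2 - (1 - (I * (a : ℂ)) • A2)‖ ≤ 2 * a ^ 2 := by
    have := conj_lin M (-φ) a
    rwa [neg_neg] at this
  have e3 : ‖T2 - 1‖ ≤ 2 * |a| := by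
    have := conj_sub_one M (-φ) a
    rwa [neg_neg] at this
  have u2 : T2 ∈ unitary (K →L[ℂ] K) :=
    mul_mem (mul_mem (RZ_unitary M _) (RX_unitary M _)) (RZ_unitary M _)
  have uA : A1 ∈ unitary (K →L[ℂ] K) :=
    mul_mem (mul_mem (RZ_unitary M _) (X_unitary M)) (RZ_unitary M _)
  have e4 := norm_rot_sub_lin (norm_X M) (2 * a * Real.cos (2 * φ))
  rw [← RX_eq] at e4
  have hs : A1 + A2 = ((2 * Real.cos (2 * φ) : ℝ) : ℂ) • M.X := RZ_X_RZ M φ
  have h : T1 * T2 - M.RX (2 * a * Real.cos (2 * φ))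
      = (T1 - (1 - (I * (a : ℂ)) • A1)) * T2 + (T2 - (1 - (I * (a : ℂ)) • A2))
        - (I * (a : ℂ)) • (A1 * (T2 - 1))
        - (M.RX (2 * a * Real.cos (2 * φ))
          - (1 - (I * ((2 * a * Real.cos (2 * φ) : ℝ) : ℂ)) • M.X)) := by
    have : (I * ((2 * a * Real.cos (2 * φ) : ℝ) : ℂ)) • M.X = (I * (a : ℂ)) • (A1 + A2) := by
      rw [hs, smul_smul]; congr 1; push_cast; ring
    rw [this]
    simp only [sub_mul, mul_sub, one_mul, mul_one, smul_mul_assoc, smul_add, smul_sub]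
    abel
  rw [h]
  have n1 : ‖(T1 - (1 - (I * (a : ℂ)) • A1)) * T2‖ ≤ 2 * a ^ 2 := by
    rwa [CStarRing.norm_mul_mem_unitary _ u2]
  have n2 : ‖(I * (a : ℂ)) • (A1 * (T2 - 1))‖ ≤ 2 * a ^ 2 := by
    rw [norm_smul, CStarRing.norm_mem_unitary_mul _ uA, norm_mul, Complex.norm_I, one_mul,
      Complex.norm_real, Real.norm_eq_abs, ← sq_abs a]
    nlinarith [abs_nonneg a]
  have n3 : 2 * (2 * a * Real.cos (2 * φ)) ^ 2 ≤ 8 * a ^ 2 := by
    have := Real.cos_sq_le_one (2 * φ)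
    nlinarith [sq_nonneg a]
  refine (norm_sub_le _ _).trans ?_
  have := (norm_sub_le ((T1 - (1 - (I * (a : ℂ)) • A1)) * T2 + (T2 - (1 - (I * (a : ℂ)) • A2)))
    ((I * (a : ℂ)) • (A1 * (T2 - 1))))
  have := norm_add_le ((T1 - (1 - (I * (a : ℂ)) • A1)) * T2) (T2 - (1 - (I * (a : ℂ)) • A2))
  linarith

theorem gen_cos (ω : ℝ) : Gen M fun l => Real.cos (ω * l) := by
  refine ⟨4, by norm_num, fun t => ?_⟩
  have w := Wb.zph _ _ (-(ω / 2)) (Wb.rot _ _ (t / 2) (Wb.zph _ _ (ω / 2) (Wb.zph _ _ (ω / 2)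
    (Wb.rot _ _ (t / 2) (Wb.zph _ _ (-(ω / 2)) (Wb.one (M := M)))))))
  refine ⟨_, Wb.mono _ _ _ ?_ w, fun l => ?_⟩
  · rw [abs_div, abs_two]; have := abs_nonneg t; linarith
  · have := step_est M (ω / 2 * l) (t / 2)
    rw [show 2 * (ω / 2 * l) = ω * l by ring, show 2 * (t / 2) = t by ring] at this
    simp only [neg_mul, mul_one, ← mul_assoc] at this ⊢
    nlinarith [sq_nonneg t]

theorem gen_of_ETrig {F : ℝ → ℝ} (hF : F ∈ ETrig) : Gen M F := by
  induction hF using Submodule.span_induction with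
  | mem f hf => obtain ⟨ω, rfl⟩ := hf; exact gen_cos M ω
  | zero => exact gen_zero M
  | add f g _ _ hf hg => exact gen_add M hf hg
  | smul a f _ hf => exact gen_smul M a hf

end Crest.Agent.R339.L
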