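import Crest.Agent.R339.Defs

/-!
# R339/L: an even measure preserving map from the Gaussian label to the uniform label
-/

set_option autoImplicit false
open MeasureTheory ProbabilityTheory Filter Topology

namespace Crest.Agent.R339.L

/-- Gaussian mass of `[-t, t]`. -/
noncomputable def uF (t : ℝ) : ℝ := ∫ x in (-t)..t, gaussianPDFReal 0 1 x

theorem uF_pdf_cont : Continuous (gaussianPDFReal 0 1) := by
  unfold gaussianPDFReal
  fun_prop

theorem uF_hasDerivAt (t : ℝ) :
    HasDerivAt uF (gaussianPDFReal 0 1 t + gaussianPDFReal 0 1 (-t)) t := by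
  have hc := uF_pdf_cont
  have h1 : ∀ s : ℝ, HasDerivAt (fun s => ∫ x in (0 : ℝ)..s, gaussianPDFReal 0 1 x)
      (gaussianPDFReal 0 1 s) s := fun s =>
    (hc.integral_hasStrictDerivAt 0 s).hasDerivAt
  have h2 := (h1 t).sub ((h1 (-t)).comp t (hasDerivAt_neg t))
  have e : uF = fun s => (∫ x in (0 : ℝ)..s, gaussianPDFReal 0 1 x) -
      ∫ x in (0 : ℝ)..(-s), gaussianPDFReal 0 1 x := by
    funext s
    rw [intervalIntegral.integral_interval_sub_left (hc.intervalIntegrable _ _)
      (hc.intervalIntegrable _ _)]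
    rfl
  rw [e]
  refine (h2.congr_deriv ?_)
  ring

theorem uF_cont : Continuous uF :=
  continuous_iff_continuousAt.2 fun t => (uF_hasDerivAt t).continuousAt

theorem uF_strictMono : StrictMono uF :=
  strictMono_of_hasDerivAt_pos uF_hasDerivAt fun t =>
    add_pos (gaussianPDFReal_pos 0 1 t one_ne_zero) (gaussianPDFReal_pos 0 1 (-t) one_ne_zero)

theorem uF_zero : uF 0 = 0 := by simp [uF]

theorem uF_meas {t : ℝ} (ht : 0 ≤ t) :
    gaussianReal 0 1 (Set.Icc (-t) t) = ENNReal.ofReal (uF t) := by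
  rw [gaussianReal_apply_eq_integral 0 one_ne_zero, uF,
    intervalIntegral.integral_of_le (by linarith), integral_Icc_eq_integral_Ioc]

theorem uF_tendsto : Tendsto uF atTop (𝓝 1) := by
  have h := intervalIntegral_tendsto_integral (μ := volume) (integrable_gaussianPDFReal 0 1)
    tendsto_neg_atTop_atBot tendsto_id
  rw [integral_gaussianPDFReal_eq_one 0 one_ne_zero] at h
  exact h

theorem uF_le_one (t : ℝ) : uF t ≤ 1 :=
  uF_strictMono.monotone.ge_of_tendsto uF_tendsto t

/-- An even map pushing the standard Gaussian to the uniform law on `[0,1)`.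

Recipe: `u l = 2 * cdf γ |l| - 1` (`γ = gaussianReal 0 1`).  `cdf γ` is continuous (no atoms:
`StieltjesFunction`/`ProbabilityTheory.cdf`, or write `cdf γ t = 1/2 + ∫ x in 0..t, gaussianPDFReal 0 1 x`),
strictly increasing (positive density), `cdf γ (-t) = 1 - cdf γ t` (symmetry `gaussianReal_map_neg`).
Compare `map u γ` and `mu0` on `Iic a` (`Measure.ext_of_Iic`): `a < 0`: both `0`; `a ≥ 1`: both `1`;
`0 ≤ a < 1`: by the IVT pick `t ≥ 0` with `2 * cdf γ t - 1 = a`, then `{l | u l ≤ a} = Icc (-t) t`,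
of measure `cdf γ t - cdf γ (-t) = a`. -/
theorem exists_u : ∃ u : ℝ → ℝ, (∀ l, u (-l) = u l) ∧
    MeasurePreserving u (gaussianReal 0 1) mu0 := by
  have hm : Measurable fun l : ℝ => uF |l| := (uF_cont.comp continuous_abs).measurable
  refine ⟨fun l => uF |l|, fun l => by simp, hm, ?_⟩
  refine Measure.ext_of_Iic _ _ fun a => ?_
  rw [Measure.map_apply hm measurableSet_Iic, mu0, Measure.restrict_apply measurableSet_Iic]
  rcases lt_or_ge a 0 with ha | ha
  · have e1 : (fun l : ℝ => uF |l|) ⁻¹' Set.Iic a = ∅ := by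
      ext l
      have : uF 0 ≤ uF |l| := uF_strictMono.monotone (abs_nonneg l)
      rw [uF_zero] at this
      simp only [Set.mem_preimage, Set.mem_Iic, Set.mem_empty_iff_false, iff_false, not_le]
      linarith
    have e2 : Set.Iic a ∩ Set.Ico (0 : ℝ) 1 = ∅ := by
      ext x
      simp only [Set.mem_inter_iff, Set.mem_Iic, Set.mem_Ico, Set.mem_empty_iff_false, iff_false,
        not_and, not_lt]
      intro h1 h2
      linarith
    rw [e1, e2]
    simp
  rcases lt_or_ge a 1 with hb | hb
  · obtain ⟨T, hT⟩ := ((uF_tendsto.eventually (lt_mem_nhds hb)).and (eventually_ge_atTop 0)).exists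
    obtain ⟨t, ht, hta⟩ := intermediate_value_Icc hT.2 uF_cont.continuousOn
      (show a ∈ Set.Icc (uF 0) (uF T) from ⟨by rw [uF_zero]; exact ha, hT.1.le⟩)
    have e1 : (fun l : ℝ => uF |l|) ⁻¹' Set.Iic a = Set.Icc (-t) t := by
      ext l
      simp only [Set.mem_preimage, Set.mem_Iic, Set.mem_Icc, ← hta, uF_strictMono.le_iff_le,
        abs_le]
    have e2 : Set.Iic a ∩ Set.Ico (0 : ℝ) 1 = Set.Icc 0 a := by
      ext x
      simp only [Set.mem_inter_iff, Set.mem_Iic, Set.mem_Ico, Set.mem_Icc]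
      constructor
      · rintro ⟨h1, h2, _⟩
        exact ⟨h2, h1⟩
      · rintro ⟨h1, h2⟩
        exact ⟨h2, h1, by linarith⟩
    rw [e1, e2, uF_meas ht.1, hta]
    simp
  · have e1 : (fun l : ℝ => uF |l|) ⁻¹' Set.Iic a = Set.univ := by
      ext l
      simp only [Set.mem_preimage, Set.mem_Iic, Set.mem_univ, iff_true]
      exact (uF_le_one _).trans hb
    have e2 : Set.Iic a ∩ Set.Ico (0 : ℝ) 1 = Set.Ico 0 1 := by
      refine Set.inter_eq_right.2 fun x hx => ?_
      exact hx.2.le.trans hb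
    rw [e1, e2]
    simp

end Crest.Agent.R339.L
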