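import Crest.Agent.R339.L.Conv
import Crest.Agent.R339.L.U

/-!
# R339/L: the Gaussian label model simulates the multi-species model
-/

set_option autoImplicit false
open MeasureTheory ProbabilityTheory Filter Topology Complex

namespace Crest.Agent.R339

variable {E K : Type} [NormedAddCommGroup E] [InnerProductSpace ℂ E]
  [NormedAddCommGroup K] [InnerProductSpace ℂ K] [CompleteSpace K]

namespace L

theorem mu0_prob : IsProbabilityMeasure mu0 := ⟨by simp [mu0]⟩

omit [CompleteSpace K] in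
theorem JJ_comp (j : Lp K 2 (gaussianReal 0 1) →ₗᵢ[ℂ] E) {u : ℝ → ℝ}
    (hu : MeasurePreserving u (gaussianReal 0 1) mu0) {y : ℝ → K} (hy : MemLp y 2 mu0) :
    JJ (j.comp (Lp.compMeasurePreservingₗᵢ ℂ u hu)) y = JJ j fun l => y (u l) := by
  have hy' : MemLp (fun l => y (u l)) 2 (gaussianReal 0 1) := hy.comp_measurePreserving hu
  simp only [JJ, dif_pos hy, dif_pos hy']
  rfl

variable (M : Model E K)

theorem mgood_nice {j : Lp K 2 mu0 →ₗᵢ[ℂ] E} {V : ℝ → K →L[ℂ] K} (h : M.MGood j V) : Nice V := by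
  induction h with
  | one => exact Nice.one
  | cost V γ _ ih => exact (Nice.const (WZ_unitary M _)).mul ih
  | rot V S θ _ hS _ _ ih => exact (nice_RX M (measurable_const.indicator hS)).mul ih

theorem re_inner_psi {V : K →L[ℂ] K} (hV : V ∈ unitary (K →L[ℂ] K)) :
    (inner ℂ (M.Z M.Ω) (M.psi V)).re = 1 - 1 / 2 * ‖M.psi V - M.Z M.Ω‖ ^ 2 := by
  rw [norm_sub_rev, @norm_sub_sq ℂ, norm_ZΩ, norm_psi M hV]
  simp only [RCLike.re_to_complex]
  ring

theorem cL_comp {u : ℝ → ℝ} (hu : MeasurePreserving u (gaussianReal 0 1) mu0)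
    {V : ℝ → K →L[ℂ] K} (hV : Nice V) : M.cL (fun l => V (u l)) = 1 - 1 / 2 * M.dev V := by
  have := mu0_prob
  have hV' := hV.comp hu.measurable
  have hm : StronglyMeasurable fun u => ‖M.psi (V u) - M.Z M.Ω‖ ^ 2 :=
    ((hV.psi_meas M).sub stronglyMeasurable_const).norm.pow 2
  have hi : Integrable (fun l => ‖M.psi (V (u l)) - M.Z M.Ω‖ ^ 2) (gaussianReal 0 1) :=
    integrable_of_bdd (hm.comp_measurable hu.measurable) 4 fun l => by
      have h1 := norm_sub_le (M.psi (V (u l))) (M.Z M.Ω)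
      rw [norm_psi M (hV.mem _), norm_ZΩ] at h1
      have := norm_nonneg (M.psi (V (u l)) - M.Z M.Ω)
      rw [Real.norm_eq_abs, abs_of_nonneg (sq_nonneg _)]
      nlinarith
  have hd : M.dev V = ∫ l, ‖M.psi (V (u l)) - M.Z M.Ω‖ ^ 2 ∂(gaussianReal 0 1) := by
    unfold Model.dev
    rw [← hu.map_eq, integral_map hu.measurable.aemeasurable hm.aestronglyMeasurable]
  unfold Model.cL
  have h1 := integral_re (hV'.integrable_inner M (gaussianReal 0 1))
  simp only [RCLike.re_to_complex] at h1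
  rw [← h1, hd, ← integral_const_mul]
  simp only [re_inner_psi M (hV.mem _)]
  rw [integral_sub (integrable_const _) (hi.const_mul _)]
  simp

theorem mgood_sim (j : Lp K 2 (gaussianReal 0 1) →ₗᵢ[ℂ] E) {u : ℝ → ℝ} (hev : ∀ l, u (-l) = u l)
    (hu : MeasurePreserving u (gaussianReal 0 1) mu0) {V : ℝ → K →L[ℂ] K}
    (h : M.MGood (j.comp (Lp.compMeasurePreservingₗᵢ ℂ u hu)) V) : Sim M j fun l => V (u l) := by
  have := mu0_prob
  induction h with
  | one => exact sim_one M j
  | cost V γ hV ih =>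
    have h1 := sim_cost M ih γ
    have h2 := JJ_comp j hu (((mgood_nice M hV).fld_psi M).memLp mu0)
    unfold Model.costL
    rw [h2]
    exact h1
  | rot V S θ hV hS hm hd ih =>
    have h1 : (gaussianReal 0 1).real (u ⁻¹' S) ≤ 1 / 100 := by
      rwa [measureReal_def, hu.measure_preimage hS.nullMeasurableSet]
    exact sim_rot M ih (by rw [cL_comp M hu (mgood_nice M hV)]; linarith) (hu.measurable hS)
      (fun l => by simp [hev]) h1 θ

theorem EnV_comp (j : Lp K 2 (gaussianReal 0 1) →ₗᵢ[ℂ] E) {u : ℝ → ℝ}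
    (hu : MeasurePreserving u (gaussianReal 0 1) mu0) {y : ℝ → K} (hy : Fld y) :
    M.EnV (j.comp (Lp.compMeasurePreservingₗᵢ ℂ u hu)) y = M.EnV j fun l => y (u l) := by
  have := mu0_prob
  unfold Model.EnV
  rw [JJ_comp j hu (hy.memLp mu0), ← hu.map_eq, integral_map hu.measurable.aemeasurable
    (hy.meas.inner stronglyMeasurable_const).aestronglyMeasurable]

end L

theorem lsim (M : Model E K) (j : Lp K 2 (gaussianReal 0 1) →ₗᵢ[ℂ] E) : S_L M j := by
  obtain ⟨u, hev, hu⟩ := L.exists_u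
  refine ⟨j.comp (Lp.compMeasurePreservingₗᵢ ℂ u hu), fun V hV θ ε hε => ?_⟩
  obtain ⟨V', hV', h⟩ := L.sim_energy M (L.mgood_sim M j hev hu hV) θ hε
  refine ⟨V', hV', le_trans (le_of_eq ?_) h⟩
  unfold Model.EnL
  rw [L.EnV_comp M j hu
    (((L.Nice.const (L.RX_unitary M θ)).mul (L.mgood_nice M hV)).fld_psi M)]
  rfl

end Crest.Agent.R339
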