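import Crest.Agent.R339.L.Gen

/-!
# R339/L: simulation of a selective mixer on an even set of labels
-/

set_option autoImplicit false
open MeasureTheory ProbabilityTheory Filter Topology Complex

namespace Crest.Agent.R339.L

variable {E K : Type} [NormedAddCommGroup E] [InnerProductSpace ℂ E]
  [NormedAddCommGroup K] [InnerProductSpace ℂ K] [CompleteSpace K]

theorem integrable_of_bdd {F : Type} [NormedAddCommGroup F] {μ : Measure ℝ} [IsFiniteMeasure μ]
    {f : ℝ → F} (hf : StronglyMeasurable f) (C : ℝ) (h : ∀ l, ‖f l‖ ≤ C) : Integrable f μ :=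
  Integrable.of_bound hf.aestronglyMeasurable C (ae_of_all _ h)

variable (M : Model E K)

theorem lgood_nice {j : Lp K 2 (gaussianReal 0 1) →ₗᵢ[ℂ] E} {V : ℝ → K →L[ℂ] K}
    (h : M.LGood j V) : Nice V := by
  induction h with
  | one => exact Nice.one
  | cost V γ _ ih => exact (Nice.const (WZ_unitary M _)).mul ih
  | rot V θ _ _ ih => exact (Nice.const (RX_unitary M θ)).mul ih
  | zph V γ _ ih => exact (nice_RZ M (by fun_prop)).mul ih

theorem Nice.psi_meas {V : ℝ → K →L[ℂ] K} (hV : Nice V) :
    StronglyMeasurable fun l => M.psi (V l) :=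
  (continuous_psi M).comp_stronglyMeasurable hV.meas

theorem norm_inner_psi {V : K →L[ℂ] K} (hV : V ∈ unitary (K →L[ℂ] K)) :
    ‖inner ℂ (M.Z M.Ω) (M.psi V)‖ ≤ 1 := by
  have := norm_inner_le_norm (𝕜 := ℂ) (M.Z M.Ω) (M.psi V)
  rwa [norm_ZΩ, norm_psi M hV, one_mul] at this

theorem Nice.integrable_inner {V : ℝ → K →L[ℂ] K} (hV : Nice V) (μ : Measure ℝ)
    [IsFiniteMeasure μ] : Integrable (fun l => inner ℂ (M.Z M.Ω) (M.psi (V l))) μ :=
  integrable_of_bdd (stronglyMeasurable_const.inner (hV.psi_meas M)) 1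
    fun l => norm_inner_psi M (hV.mem l)

theorem abs_cL_sub {V V' : ℝ → K →L[ℂ] K} (hV : Nice V) (hV' : Nice V') :
    |M.cL V' - M.cL V| ≤ ∫ l, ‖M.psi (V' l) - M.psi (V l)‖ ∂(gaussianReal 0 1) := by
  unfold Model.cL
  rw [← Complex.sub_re, ← integral_sub (hV'.integrable_inner M _) (hV.integrable_inner M _)]
  refine (Complex.abs_re_le_norm _).trans (norm_integral_le_of_norm_le ?_ (ae_of_all _ fun l => ?_))
  · refine integrable_of_bdd ((hV'.psi_meas M).sub (hV.psi_meas M)).norm 2 fun l => ?_
    rw [norm_norm]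
    refine (norm_sub_le _ _).trans ?_
    rw [norm_psi M (hV.mem l), norm_psi M (hV'.mem l)]; norm_num
  · rw [← inner_sub_right]
    refine (norm_inner_le_norm _ _).trans ?_
    rw [norm_ZΩ, one_mul]

/-- loss of overlap under left multiplication. -/
theorem cL_mul_ge {P V : ℝ → K →L[ℂ] K} (hP : Nice P) (hV : Nice V) {g : ℝ → ℝ}
    (hg : Integrable g (gaussianReal 0 1)) (h : ∀ l, cm M (P l) ≤ g l) :
    M.cL V - ∫ l, g l ∂(gaussianReal 0 1) ≤ M.cL fun l => P l * V l := by
  have h1 := abs_cL_sub M hV (hP.mul hV)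
  have h2 : ∫ l, ‖M.psi (P l * V l) - M.psi (V l)‖ ∂(gaussianReal 0 1)
      ≤ ∫ l, g l ∂(gaussianReal 0 1) :=
    integral_mono_of_nonneg (ae_of_all _ fun l => norm_nonneg _) hg
      (ae_of_all _ fun l => (norm_psi_mul_sub M (hP.mem l) (hV.mem l)).trans (h l))
  have := (abs_le.1 h1).1
  linarith

theorem Wb.lgood {j : Lp K 2 (gaussianReal 0 1) →ₗᵢ[ℂ] E} {V : ℝ → K →L[ℂ] K}
    (hV : M.LGood j V) {a : ℝ} {U : ℝ → K →L[ℂ] K} (h : Wb M a U)
    (hc : 1 / 2 + 2 * a ≤ M.cL V) : M.LGood j fun l => U l * V l := by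
  induction h with
  | one => simpa using hV
  | rot a U θ hU ih =>
    have h1 := ih (by have := abs_nonneg θ; linarith)
    have h2 := cL_mul_ge M (Wb.rot _ _ θ hU).nice (lgood_nice M hV)
      (integrable_const (2 * (a + |θ|))) (Wb.rot _ _ θ hU).cm_le
    simp only [integral_const, probReal_univ, smul_eq_mul, one_mul, mul_assoc] at h2
    have := Model.LGood.rot _ θ h1 (by linarith)
    simpa only [mul_assoc] using this
  | zph a U γ hU ih =>
    have := Model.LGood.zph _ γ (ih hc)
    simpa only [mul_assoc] using this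
  | mono a b U hab hU ih => exact ih (by linarith)

theorem pow_est {T : K →L[ℂ] K} (hT : T ∈ unitary (K →L[ℂ] K)) {a δ : ℝ}
    (h : ‖T - M.RX a‖ ≤ δ) (m : ℕ) : ‖T ^ m - M.RX (m * a)‖ ≤ m * δ := by
  induction m with
  | zero => simp [RX_zero]
  | succ m ih =>
    rw [pow_succ, Nat.cast_succ, add_mul, one_mul, RX_add, add_mul, one_mul]
    exact (norm_mul_sub_mul hT (RX_unitary M _)).trans (add_le_add ih h)

theorem Nice.pow {T : ℝ → K →L[ℂ] K} (hT : Nice T) (m : ℕ) : Nice fun l => T l ^ m := by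
  induction m with
  | zero => simpa using Nice.one
  | succ m ih => simpa only [pow_succ] using ih.mul hT

/-- A selective mixer on a small even set is approximated by an admissible word. -/
theorem rot_sim {j : Lp K 2 (gaussianReal 0 1) →ₗᵢ[ℂ] E} {V : ℝ → K →L[ℂ] K}
    (hV : M.LGood j V) (hc : 9 / 10 ≤ M.cL V) {S : Set ℝ} (hS : MeasurableSet S)
    (hev : ∀ l, -l ∈ S ↔ l ∈ S) (hm : (gaussianReal 0 1).real S ≤ 1 / 100) (θ : ℝ) {ε : ℝ}
    (hε : 0 < ε) : ∃ U : ℝ → K →L[ℂ] K, Nice U ∧ M.LGood j (fun l => U l * V l) ∧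
      ∫ l, ‖U l - M.RX (S.indicator (fun _ => θ) l)‖ ∂(gaussianReal 0 1) ≤ ε := by
  obtain ⟨F, hF, hFa⟩ := trig_approx S hS hev θ (ε := min (ε / 4) (1 / 100)) (by positivity)
  obtain ⟨C, hC, hG⟩ := gen_of_ETrig M hF
  obtain ⟨B, hB⟩ := ETrig_bdd hF
  have hFm : Measurable F := (ETrig_cont hF).measurable
  have hfm : Measurable (S.indicator fun _ => θ : ℝ → ℝ) := measurable_const.indicator hS
  have hint : Integrable (fun l => |F l - S.indicator (fun _ => θ) l|) (gaussianReal 0 1) := by
    refine Integrable.abs (Integrable.sub ?_ ((integrable_const θ).indicator hS))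
    exact integrable_of_bdd hFm.stronglyMeasurable B hB
  obtain ⟨N, hN⟩ := exists_nat_gt (C / min (ε / 2) (1 / 100))
  have hmin : 0 < min (ε / 2) (1 / 100) := by positivity
  have hN0 : (0 : ℝ) < N := lt_of_le_of_lt (by positivity) hN
  have hCN : C * (1 / N) ≤ min (ε / 2) (1 / 100) := by
    rw [div_lt_iff₀ hmin] at hN
    rw [mul_one_div, div_le_iff₀ hN0]; linarith
  have hCN1 : C * (1 / N) ≤ ε / 2 := hCN.trans (min_le_left _ _)
  have hCN2 : C * (1 / N) ≤ 1 / 100 := hCN.trans (min_le_right _ _)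
  obtain ⟨T, hT, hT'⟩ := hG (1 / N)
  rw [abs_of_pos (by positivity)] at hT
  have hpow : ∀ m : ℕ, m ≤ N → ∀ l, ‖T l ^ m - M.RX (m * (1 / N * F l))‖ ≤ C * (1 / N) := by
    intro m hm l
    refine (pow_est M (hT.nice.mem l) (hT' l) m).trans ?_
    have : (m : ℝ) ≤ N := by exact_mod_cast hm
    calc (m : ℝ) * (C * (1 / N) ^ 2) ≤ N * (C * (1 / N) ^ 2) := by gcongr
      _ = C * (1 / N) := by field_simp
  have hcm : ∀ m : ℕ, m ≤ N → ∀ l, cm M (T l ^ m) ≤
      2 * (S.indicator (fun _ => (1 : ℝ)) l + |F l - S.indicator (fun _ => θ) l|) + 2 / 100 := by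
    intro m hm l
    have h1 := cm_le M (T l ^ m) (M.RX (m * (1 / N * F l)))
    have h2 := cm_RX M (m * (1 / N * F l))
    have h3 := hpow m hm l
    have h4 : |Real.sin (m * (1 / N * F l))|
        ≤ S.indicator (fun _ => (1 : ℝ)) l + |F l - S.indicator (fun _ => θ) l| := by
      by_cases hl : l ∈ S
      · rw [Set.indicator_of_mem hl]
        have := Real.abs_sin_le_one (m * (1 / N * F l))
        have := abs_nonneg (F l - S.indicator (fun _ => θ) l)
        linarith
      · rw [Set.indicator_of_notMem hl, Set.indicator_of_notMem hl, zero_add, sub_zero]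
        refine Real.abs_sin_le_abs.trans ?_
        rw [← mul_assoc, abs_mul]
        refine mul_le_of_le_one_left (abs_nonneg _) ?_
        have : (m : ℝ) ≤ N := by exact_mod_cast hm
        rw [abs_of_nonneg (by positivity), mul_one_div, div_le_one hN0]
        exact this
    linarith
  have hgood : ∀ m : ℕ, m ≤ N → M.LGood j fun l => T l ^ m * V l := by
    intro m
    induction m with
    | zero => intro _; simpa using hV
    | succ m ih =>
      intro hm
      have hm' : m ≤ N := by omega
      have hi1 : Integrable (S.indicator fun _ => (1 : ℝ)) (gaussianReal 0 1) :=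
        (integrable_const _).indicator hS
      have hi2 : Integrable (fun l => 2 * (S.indicator (fun _ => (1 : ℝ)) l
          + |F l - S.indicator (fun _ => θ) l|)) (gaussianReal 0 1) := (hi1.add hint).const_mul 2
      have h1 := cL_mul_ge M (hT.nice.pow m) (lgood_nice M hV)
        (hi2.add (integrable_const (2 / 100))) (hcm m hm')
      simp only [Pi.add_apply] at h1
      rw [integral_add hi2 (integrable_const _), integral_const_mul,
        integral_add hi1 hint, integral_indicator_const _ hS] at h1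
      simp only [integral_const, probReal_univ, smul_eq_mul, one_mul, mul_one] at h1
      have h2 := hFa.trans (min_le_right _ _)
      have := Wb.lgood M (ih hm') hT (by linarith)
      simpa only [pow_succ', mul_assoc] using this
  refine ⟨fun l => T l ^ N, hT.nice.pow N, hgood N le_rfl, ?_⟩
  have h1 : ∫ l, ‖T l ^ N - M.RX (S.indicator (fun _ => θ) l)‖ ∂(gaussianReal 0 1)
      ≤ ∫ l, (ε / 2 + 2 * |F l - S.indicator (fun _ => θ) l|) ∂(gaussianReal 0 1) := by
    refine integral_mono_of_nonneg (ae_of_all _ fun l => norm_nonneg _)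
      ((integrable_const _).add (hint.const_mul 2)) (ae_of_all _ fun l => ?_)
    have h2 := hpow N le_rfl l
    rw [show (N : ℝ) * (1 / N * F l) = F l by field_simp] at h2
    have h3 := norm_RX_sub M (F l) (S.indicator (fun _ => θ) l)
    have h4 := norm_sub_le_norm_sub_add_norm_sub (T l ^ N) (M.RX (F l))
      (M.RX (S.indicator (fun _ => θ) l))
    simp only
    linarith
  rw [integral_add (integrable_const _) (hint.const_mul 2), integral_const_mul] at h1
  simp only [integral_const, probReal_univ, smul_eq_mul, one_mul] at h1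
  have h2 := hFa.trans (min_le_left _ _)
  linarith

end Crest.Agent.R339.L
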